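import Vale.Agent.Lib.P043.Line

namespace Vale.Agent.Results.P043.Combined

open Vale.Agent.Lib.P043
open scoped Pointwise

lemma rigid_of (d : ℕ) (F : Finset (Fin d → ℤ)) (h : F.card.Prime ∨ IsCollinear F) :
    ∃ e : ℕ, 0 < e ∧ IsRigid e F := by
  rcases h with h | ⟨f₀, t, h⟩
  · exact ⟨F.card, h.pos, prime_rigid F h⟩
  · by_cases ht : t = 0
    · refine ⟨1, one_pos, fun B _ f hf f' hf' => ?_⟩
      obtain ⟨n, hn⟩ := h f hf
      obtain ⟨n', hn'⟩ := h f' hf'
      have : f - f' = 0 := by rw [hn, hn', ht]; simp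
      rw [this]; simp
    · exact line_rigid t (fun n hn => (smul_eq_zero.mp hn).resolve_right ht) f₀ F h

/-- (1) The periodic tiling conjecture holds, in every dimension `d`, for every tile of `ℤ^d` that
is a direct sum `F₁ ⊕ F₂` in which each summand has prime cardinality or is contained in a line.
(2) Multi-tilings of any level by a tile of prime cardinality `p` in an arbitrary abelian group are
invariant under `p (f - f')`; in a finitely generated group a periodic one of the same level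
exists. -/
theorem result :
    (∀ (d : ℕ) (F₁ F₂ : Finset (Fin d → ℤ)),
      (F₁.card.Prime ∨ IsCollinear F₁) → (F₂.card.Prime ∨ IsCollinear F₂) →
      (F₁ + F₂).card = F₁.card * F₂.card →
      (∃ A : Set (Fin d → ℤ), IsTiling A (F₁ + F₂)) →
      ∃ A : Set (Fin d → ℤ), IsTiling A (F₁ + F₂) ∧ IsPeriodic A) ∧
    (∀ (G : Type) [AddCommGroup G] (F : Finset G), F.card.Prime → ∀ (k : ℕ) (A : Set G),
      IsLevelTiling k A F →
      (∀ f ∈ F, ∀ f' ∈ F, ∀ a : G, a + F.card • (f - f') ∈ A ↔ a ∈ A) ∧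
      (AddGroup.FG G → ∃ A' : Set G, IsLevelTiling k A' F ∧ IsPeriodic A')) := by
  constructor
  · intro d F₁ F₂ h₁ h₂ hdir hF
    obtain ⟨A, hA⟩ := hF
    have : AddGroup.FG (Fin d → ℤ) := Module.Finite.iff_addGroup_fg.mp inferInstance
    obtain ⟨e₁, he₁, hR₁⟩ := rigid_of d F₁ h₁
    obtain ⟨e₂, he₂, hR₂⟩ := rigid_of d F₂ h₂
    obtain ⟨A', h1, h2⟩ := two_rigid_periodic F₁ F₂ e₁ e₂ he₁ he₂ hR₁ hR₂ hdir A
      ((isTiling_iff_level_one A _).mp hA)
    exact ⟨A', (isTiling_iff_level_one A' _).mpr h1, h2⟩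
  · intro G _ F hp k A hA
    refine ⟨fun f hf f' hf' a => prime_stab F.card hp F rfl k A hA f f' hf hf' a, fun hG => ?_⟩
    exact prime_periodic F hp k A hA

end Vale.Agent.Results.P043.Combined
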