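import Vale.Agent.Lib.P043.Line

namespace Vale.Agent.Results.P043.DirectSumPrimeOrLine

open Vale.Agent.Lib.P043
open scoped Pointwise

lemma rigid_of (d : ℕ) (F : Finset (Fin d → ℤ)) (h : F.card.Prime ∨ IsCollinear F) :
    ∃ e : ℕ, 0 < e ∧ IsRigid e F := by
  rcases h with h | ⟨f₀, t, h⟩
  · exact ⟨F.card, h.pos, prime_rigid F h⟩
  · by_cases ht : t = 0
    · refine ⟨1, one_pos, fun B _ f hf f' hf' => ?_⟩
      obtain ⟨n, hn⟩ := h f hf
      obtain ⟨n', hn'⟩ := h f' hf'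
      have : f - f' = 0 := by rw [hn, hn', ht]; simp
      rw [this]; simp
    · exact line_rigid t (fun n hn => (smul_eq_zero.mp hn).resolve_right ht) f₀ F h

/-- The periodic tiling conjecture holds, in every dimension `d`, for every tile of `ℤ^d` that is a
direct sum `F₁ ⊕ F₂` in which each summand has prime cardinality or is contained in a line. -/
theorem result (d : ℕ) (F₁ F₂ : Finset (Fin d → ℤ))
    (h₁ : F₁.card.Prime ∨ IsCollinear F₁) (h₂ : F₂.card.Prime ∨ IsCollinear F₂)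
    (hdir : (F₁ + F₂).card = F₁.card * F₂.card)
    (hF : ∃ A : Set (Fin d → ℤ), IsTiling A (F₁ + F₂)) :
    ∃ A : Set (Fin d → ℤ), IsTiling A (F₁ + F₂) ∧ IsPeriodic A := by
  obtain ⟨A, hA⟩ := hF
  have : AddGroup.FG (Fin d → ℤ) := Module.Finite.iff_addGroup_fg.mp inferInstance
  obtain ⟨e₁, he₁, hR₁⟩ := rigid_of d F₁ h₁
  obtain ⟨e₂, he₂, hR₂⟩ := rigid_of d F₂ h₂
  obtain ⟨A', h1, h2⟩ := two_rigid_periodic F₁ F₂ e₁ e₂ he₁ he₂ hR₁ hR₂ hdir A
    ((isTiling_iff_level_one A _).mp hA)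
  exact ⟨A', (isTiling_iff_level_one A' _).mpr h1, h2⟩

end Vale.Agent.Results.P043.DirectSumPrimeOrLine
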