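import Vale.Agent.Lib.P043.DirectSum

namespace Vale.Agent.Results.P043.DirectSumTwoPrimes

open Vale.Agent.Lib.P043
open scoped Pointwise

/-- The periodic tiling conjecture holds, in every dimension `d`, for every tile of `ℤ^d` that is a
direct sum `F₁ ⊕ F₂` of two sets of prime cardinality. -/
theorem result (d : ℕ) (F₁ F₂ : Finset (Fin d → ℤ)) (h₁ : F₁.card.Prime) (h₂ : F₂.card.Prime)
    (hdir : (F₁ + F₂).card = F₁.card * F₂.card)
    (hF : ∃ A : Set (Fin d → ℤ), IsTiling A (F₁ + F₂)) :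
    ∃ A : Set (Fin d → ℤ), IsTiling A (F₁ + F₂) ∧ IsPeriodic A := by
  obtain ⟨A, hA⟩ := hF
  have : AddGroup.FG (Fin d → ℤ) := Module.Finite.iff_addGroup_fg.mp inferInstance
  obtain ⟨A', h1, h2⟩ := two_rigid_periodic F₁ F₂ F₁.card F₂.card h₁.pos h₂.pos
    (prime_rigid F₁ h₁) (prime_rigid F₂ h₂) hdir A ((isTiling_iff_level_one A _).mp hA)
  exact ⟨A', (isTiling_iff_level_one A' _).mpr h1, h2⟩

end Vale.Agent.Results.P043.DirectSumTwoPrimes
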