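import Vale.Agent.Lib.P043.Prime

namespace Vale.Agent.Results.P043.PrimeMultiTiling

open Vale.Agent.Lib.P043

/-- Multi-tilings of any level by a tile of prime cardinality `p` in an arbitrary abelian group are
invariant under `p (f - f')`; in a finitely generated group a periodic one of the same level exists. -/
theorem result {G : Type*} [AddCommGroup G] (F : Finset G) (hp : F.card.Prime) (k : ℕ)
    (A : Set G) (hA : IsLevelTiling k A F) :
    (∀ f ∈ F, ∀ f' ∈ F, ∀ a : G, a + F.card • (f - f') ∈ A ↔ a ∈ A) ∧
    (AddGroup.FG G → ∃ A' : Set G, IsLevelTiling k A' F ∧ IsPeriodic A') := by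
  refine ⟨fun f hf f' hf' a => prime_stab F.card hp F rfl k A hA f f' hf hf' a, fun hG => ?_⟩
  exact prime_periodic F hp k A hA

end Vale.Agent.Results.P043.PrimeMultiTiling
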